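import Vale.Agent.Lib.P309.Model

namespace Vale.Agent.Lib.P309

open MeasureTheory ProbabilityTheory Metric Set
open scoped ENNReal

/-- An orthonormal family of `k ≤ d` vectors is the beginning of an orthonormal basis. -/
lemma frmU_exists_basis {d k : ℕ} (hk : k ≤ d) {C : Fin k → Vec d} (hC : Orthonormal ℝ C) :
    ∃ b : OrthonormalBasis (Fin d) ℝ (Vec d), ∀ s : Fin k, b (Fin.castLE hk s) = C s := by
  have hcard : Module.finrank ℝ (Vec d) = Fintype.card (Fin d) := by simp
  let v : Fin d → Vec d := fun i => if h : i.val < k then C ⟨i.val, h⟩ else 0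
  have hv : Orthonormal ℝ (({i : Fin d | i.val < k} : Set (Fin d)).domRestrict v) := by
    have hcomp : (({i : Fin d | i.val < k} : Set (Fin d)).domRestrict v)
        = C ∘ (fun i : ({i : Fin d | i.val < k} : Set (Fin d)) => (⟨i.1.val, i.2⟩ : Fin k)) := by
      funext i
      have hi : i.1.val < k := i.2
      simp [v, Set.domRestrict, hi]
    rw [hcomp]
    refine hC.comp _ ?_
    intro i j hij
    have h1 : i.1.val = j.1.val := by
      have := congrArg Fin.val hij
      simpa using this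
    exact Subtype.ext (Fin.ext h1)
  obtain ⟨b, hb⟩ := Orthonormal.exists_orthonormalBasis_extension_of_card_eq hcard hv
  refine ⟨b, fun s => ?_⟩
  have hs : (Fin.castLE hk s) ∈ ({i : Fin d | i.val < k} : Set (Fin d)) := by
    simp
  rw [hb (Fin.castLE hk s) hs]
  simp [v]

/-- Linear isometries act transitively on orthonormal families. -/
lemma frmU_exists_isometry {d N : ℕ} (hN : N ≤ d) {B B' : Fin N → Vec d}
    (hB : Orthonormal ℝ B) (hB' : Orthonormal ℝ B') :
    ∃ O : Vec d ≃ₗᵢ[ℝ] Vec d, ∀ s, O (B s) = B' s := by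
  obtain ⟨b, hb⟩ := frmU_exists_basis hN hB
  obtain ⟨b', hb'⟩ := frmU_exists_basis hN hB'
  refine ⟨b.equiv b' (Equiv.refl _), fun s => ?_⟩
  rw [← hb s, ← hb' s, OrthonormalBasis.equiv_apply_basis]
  simp
/-- The pairing of two families of vectors. -/
noncomputable def frmPair {d N : ℕ} (Y B : Fin N → Vec d) : ℝ := ∑ r, inner ℝ (Y r) (B r)

/-- The action of a square matrix on a family of vectors. -/
noncomputable def frmMul {d N : ℕ} (A : Fin N → Fin N → ℝ) (B : Fin N → Vec d) :
    Fin N → Vec d := fun r => ∑ s, A r s • B s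

/-- The Fourier kernel of two families of vectors. -/
noncomputable def frmKer {d N : ℕ} (Y B : Fin N → Vec d) : ℂ :=
  Complex.exp ((frmPair Y B : ℂ) * Complex.I)

lemma frmPair_map {d N : ℕ} (O : Vec d ≃ₗᵢ[ℝ] Vec d) (Y B : Fin N → Vec d) :
    frmPair (fun i => O (Y i)) (fun i => O (B i)) = frmPair Y B := by
  simp [frmPair, LinearIsometryEquiv.inner_map_map]

lemma frmMul_map {d N : ℕ} (O : Vec d ≃ₗᵢ[ℝ] Vec d) (A : Fin N → Fin N → ℝ)
    (B : Fin N → Vec d) :
    frmMul A (fun i => O (B i)) = fun r => O (frmMul A B r) := by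
  funext r
  simp [frmMul, map_sum, map_smul]

lemma frmKer_map {d N : ℕ} (O : Vec d ≃ₗᵢ[ℝ] Vec d) (Y B : Fin N → Vec d) :
    frmKer (fun i => O (Y i)) (fun i => O (B i)) = frmKer Y B := by
  simp [frmKer, frmPair_map]

lemma norm_frmKer {d N : ℕ} (Y B : Fin N → Vec d) : ‖frmKer Y B‖ = 1 := by
  unfold frmKer
  exact Complex.norm_exp_ofReal_mul_I _

lemma continuous_frmKer {d N : ℕ} (A : Fin N → Fin N → ℝ) :
    Continuous (fun p : (Fin N → Vec d) × (Fin N → Vec d) => frmKer (frmMul A p.2) p.1) := by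
  unfold frmKer frmPair frmMul
  fun_prop

lemma continuous_frmKer_left {d N : ℕ} (Y : Fin N → Vec d) :
    Continuous (fun B : Fin N → Vec d => frmKer Y B) := by
  unfold frmKer frmPair
  fun_prop

lemma continuous_frmKer_right {d N : ℕ} (A : Fin N → Fin N → ℝ) (B : Fin N → Vec d) :
    Continuous (fun B' : Fin N → Vec d => frmKer (frmMul A B') B) := by
  unfold frmKer frmPair frmMul
  fun_prop
/-- Integrals against an invariant measure are invariant. -/
lemma frmU_integral_inv {d N : ℕ} {κ : Measure (Fin N → Vec d)}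
    (hinv : ∀ O : Vec d ≃ₗᵢ[ℝ] Vec d, κ.map (fun b i => O (b i)) = κ)
    (O : Vec d ≃ₗᵢ[ℝ] Vec d) {f : (Fin N → Vec d) → ℂ} (hf : Continuous f) :
    ∫ b, f (fun i => O (b i)) ∂κ = ∫ b, f b ∂κ := by
  have hmeas : Measurable (fun (b : Fin N → Vec d) (i : Fin N) => O (b i)) := by
    fun_prop
  conv_rhs => rw [← hinv O]
  rw [integral_map hmeas.aemeasurable hf.aestronglyMeasurable]

/-- The exchange identity behind uniqueness. -/
lemma frmU_key {d N : ℕ} (hN : N ≤ d) (κ κ' : Measure (Fin N → Vec d))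
    [IsFiniteMeasure κ] [IsFiniteMeasure κ']
    (hκ : ∀ᵐ b ∂κ, Orthonormal ℝ b) (hκ' : ∀ᵐ b ∂κ', Orthonormal ℝ b)
    (hinv : ∀ O : Vec d ≃ₗᵢ[ℝ] Vec d, κ.map (fun b i => O (b i)) = κ)
    (hinv' : ∀ O : Vec d ≃ₗᵢ[ℝ] Vec d, κ'.map (fun b i => O (b i)) = κ')
    (A : Fin N → Fin N → ℝ) {B₀ B₀' : Fin N → Vec d}
    (hB₀ : Orthonormal ℝ B₀) (hB₀' : Orthonormal ℝ B₀') :
    (κ Set.univ).toReal • ∫ B', frmKer (frmMul A B') B₀ ∂κ'
      = (κ' Set.univ).toReal • ∫ B, frmKer (frmMul A B₀') B ∂κ := by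
  have hG : ∀ B : Fin N → Vec d, Orthonormal ℝ B →
      ∫ B', frmKer (frmMul A B') B ∂κ' = ∫ B', frmKer (frmMul A B') B₀ ∂κ' := by
    intro B hB
    obtain ⟨O, hO⟩ := frmU_exists_isometry hN hB hB₀
    rw [← frmU_integral_inv hinv' O (continuous_frmKer_right A B₀)]
    refine integral_congr_ae (Filter.Eventually.of_forall fun B' => ?_)
    show frmKer (frmMul A B') B = frmKer (frmMul A (fun i => O (B' i))) B₀
    rw [frmMul_map, ← funext hO]
    exact (frmKer_map O _ _).symm
  have hH : ∀ B' : Fin N → Vec d, Orthonormal ℝ B' →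
      ∫ B, frmKer (frmMul A B') B ∂κ = ∫ B, frmKer (frmMul A B₀') B ∂κ := by
    intro B' hB'
    obtain ⟨O, hO⟩ := frmU_exists_isometry hN hB₀' hB'
    rw [← frmU_integral_inv hinv O (continuous_frmKer_left (frmMul A B'))]
    refine integral_congr_ae (Filter.Eventually.of_forall fun B => ?_)
    show frmKer (frmMul A B') (fun i => O (B i)) = frmKer (frmMul A B₀') B
    rw [← funext hO, frmMul_map]
    exact frmKer_map O _ _
  have hint : Integrable
      (fun p : (Fin N → Vec d) × (Fin N → Vec d) => frmKer (frmMul A p.2) p.1) (κ.prod κ') := by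
    refine Integrable.of_bound (continuous_frmKer A).aestronglyMeasurable 1
      (Filter.Eventually.of_forall fun p => ?_)
    rw [norm_frmKer]
  have hswap := integral_integral_swap
    (f := fun (B B' : Fin N → Vec d) => frmKer (frmMul A B') B) hint
  have h1 : ∫ B, ∫ B', frmKer (frmMul A B') B ∂κ' ∂κ
      = (κ Set.univ).toReal • ∫ B', frmKer (frmMul A B') B₀ ∂κ' := by
    rw [integral_congr_ae (hκ.mono fun B hB => hG B hB), integral_const]
    rfl
  have h2 : ∫ B', ∫ B, frmKer (frmMul A B') B ∂κ ∂κ'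
      = (κ' Set.univ).toReal • ∫ B, frmKer (frmMul A B₀') B ∂κ := by
    rw [integral_congr_ae (hκ'.mono fun B' hB' => hH B' hB'), integral_const]
    rfl
  rw [← h1, ← h2]
  exact hswap
/-- Every family of `N ≤ d` vectors is a matrix multiple of an orthonormal family. -/
lemma frmU_exists_decomp {d N : ℕ} (hN : N ≤ d) (Y : Fin N → Vec d) :
    ∃ (A : Fin N → Fin N → ℝ) (B₀ : Fin N → Vec d), Orthonormal ℝ B₀ ∧ frmMul A B₀ = Y := by
  classical
  have hmem : ∀ r, Y r ∈ Submodule.span ℝ (Set.range Y) :=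
    fun r => Submodule.subset_span (Set.mem_range_self r)
  have hk : Module.finrank ℝ (Submodule.span ℝ (Set.range Y)) ≤ N := by
    have h := finrank_range_le_card (R := ℝ) Y
    simpa [Set.finrank] using h
  obtain ⟨k, hkdef⟩ : ∃ k, k = Module.finrank ℝ (Submodule.span ℝ (Set.range Y)) := ⟨_, rfl⟩
  have hkN : k ≤ N := hkdef ▸ hk
  have c : OrthonormalBasis (Fin k) ℝ (Submodule.span ℝ (Set.range Y)) :=
    (stdOrthonormalBasis ℝ (Submodule.span ℝ (Set.range Y))).reindex (finCongr hkdef.symm)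
  have hC : Orthonormal ℝ (fun j : Fin k => ((c j : Submodule.span ℝ (Set.range Y)) : Vec d)) :=
    c.orthonormal.comp_linearIsometry (Submodule.span ℝ (Set.range Y)).subtypeₗᵢ
  obtain ⟨b, hb⟩ := frmU_exists_basis (hkN.trans hN) hC
  refine ⟨fun r s => if h : s.val < k then c.repr ⟨Y r, hmem r⟩ ⟨s.val, h⟩ else 0,
    fun s => b (Fin.castLE hN s), b.orthonormal.comp _ (Fin.castLE_injective hN), ?_⟩
  funext r
  have hY : Y r = ∑ j : Fin k, c.repr ⟨Y r, hmem r⟩ j • b (Fin.castLE (hkN.trans hN) j) := by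
    have h1 := c.sum_repr ⟨Y r, hmem r⟩
    have h2 := congrArg (fun v : Submodule.span ℝ (Set.range Y) => (v : Vec d)) h1
    simp only [Submodule.coe_sum, Submodule.coe_smul] at h2
    refine h2.symm.trans ?_
    refine Finset.sum_congr rfl fun j _ => ?_
    rw [hb j]
  refine Eq.trans ?_ hY.symm
  symm
  refine Fintype.sum_of_injective (Fin.castLE hkN) (Fin.castLE_injective hkN) _ _ ?_ ?_
  · intro s hs
    have hlt : ¬ s.val < k := by
      intro h
      exact hs ⟨⟨s.val, h⟩, Fin.ext rfl⟩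
    simp [hlt]
  · intro j
    simp

/-- Uniqueness of the rotation-invariant law on orthonormal families.  Two finite measures on
families of `N ≤ d` vectors of `ℝ^d`, of the same total mass, both concentrated on orthonormal
families and both invariant under every linear isometry (applied to all the vectors of the
family), are equal. -/
theorem frame_measure_unique {d N : ℕ} (hN : N ≤ d) (ν ν' : Measure (Fin N → Vec d))
    [IsFiniteMeasure ν] [IsFiniteMeasure ν'] (hmass : ν Set.univ = ν' Set.univ)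
    (hν : ∀ᵐ b ∂ν, Orthonormal ℝ b) (hν' : ∀ᵐ b ∂ν', Orthonormal ℝ b)
    (hinv : ∀ O : Vec d ≃ₗᵢ[ℝ] Vec d, ν.map (fun b i => O (b i)) = ν)
    (hinv' : ∀ O : Vec d ≃ₗᵢ[ℝ] Vec d, ν'.map (fun b i => O (b i)) = ν') :
    ν = ν' := by
  classical
  by_cases hm : ν' Set.univ = 0
  · have h1 : ν' = 0 := Measure.measure_univ_eq_zero.mp hm
    have h2 : ν = 0 := Measure.measure_univ_eq_zero.mp (hmass.trans hm)
    rw [h1, h2]
  have hm' : (ν' Set.univ).toReal ≠ 0 := by
    rw [ENNReal.toReal_ne_zero]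
    exact ⟨hm, measure_ne_top _ _⟩
  obtain ⟨-, Bfix, hBfix, -⟩ := frmU_exists_decomp hN (fun _ : Fin N => (0 : Vec d))
  have hchar : ∀ Y : Fin N → Vec d, ∫ B, frmKer Y B ∂ν = ∫ B, frmKer Y B ∂ν' := by
    intro Y
    obtain ⟨A, B₀', hB₀', rfl⟩ := frmU_exists_decomp hN Y
    have e1 := frmU_key hN ν ν' hν hν' hinv hinv' A hBfix hB₀'
    have e2 := frmU_key hN ν' ν' hν' hν' hinv' hinv' A hBfix hB₀'
    rw [hmass] at e1
    have e3 : (ν' Set.univ).toReal • ∫ B, frmKer (frmMul A B₀') B ∂ν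
        = (ν' Set.univ).toReal • ∫ B, frmKer (frmMul A B₀') B ∂ν' := e1.symm.trans e2
    exact smul_right_injective ℂ hm' e3
  refine Measure.ext_of_charFunDual (funext fun L => ?_)
  rw [charFunDual_apply, charFunDual_apply]
  have hL : ∀ B : Fin N → Vec d, Complex.exp ((L B : ℂ) * Complex.I)
      = frmKer (fun r => (InnerProductSpace.toDual ℝ (Vec d)).symm
          (L.comp (ContinuousLinearMap.single ℝ (fun _ : Fin N => Vec d) r))) B := by
    intro B
    unfold frmKer frmPair
    rw [← ContinuousLinearMap.sum_comp_single ℝ (fun _ : Fin N => Vec d) L B]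
    simp only [InnerProductSpace.toDual_symm_apply]
  simp_rw [hL]
  exact hchar _

end Vale.Agent.Lib.P309
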