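import Vale.Agent.Lib.P309.Geo.Basic
import Vale.Agent.Lib.P309.Geo.GaussIndep
import Vale.Agent.Lib.P309.Multi.Unique

namespace Vale.Agent.Lib.P309

open MeasureTheory ProbabilityTheory Metric Set
open scoped ENNReal

/-- A point of the unit sphere is not the origin. -/
lemma gdir_sph_ne_zero {d : ℕ} (u : Sph d) : (u : Vec d) ≠ 0 := by
  intro h
  have h2 : ‖(u : Vec d)‖ = 1 := by simp
  rw [h, norm_zero] at h2
  exact zero_ne_one h2

/-- The normalisation map fixes the points of the unit sphere. -/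
lemma gdir_dirS_coe {d : ℕ} (s₀ u : Sph d) : dirS s₀ (u : Vec d) = u := by
  apply Subtype.ext
  have h2 : ‖(u : Vec d)‖ = 1 := by simp
  rw [coe_dirS_of_ne s₀ (gdir_sph_ne_zero u), h2, inv_one, one_smul]

/-- The normalisation map commutes with linear isometries away from the origin. -/
lemma gdir_dirS_map {d : ℕ} (s₀ : Sph d) (O : Vec d ≃ₗᵢ[ℝ] Vec d) {g : Vec d} (hg : g ≠ 0) :
    ((dirS s₀ (O g) : Sph d) : Vec d) = O ((dirS s₀ g : Sph d) : Vec d) := by
  have hOg : O g ≠ 0 := by
    intro h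
    apply hg
    have h' := congrArg O.symm h
    simpa using h'
  rw [coe_dirS_of_ne s₀ hOg, coe_dirS_of_ne s₀ hg, LinearIsometryEquiv.norm_map, map_smul]

/-- The origin is a null set for the standard Gaussian measure (in positive dimension). -/
lemma gdir_gaussian_zero_null {d : ℕ} (s₀ : Sph d) : stdGaussian (Vec d) {(0 : Vec d)} = 0 := by
  refine measure_mono_null ?_ (stdGaussian_hyperplane_null (s₀ : Vec d) (gdir_sph_ne_zero s₀))
  intro x hx
  rw [mem_singleton_iff] at hx
  simp [hx]

/-- A one-element family is orthonormal exactly when its vector has norm one. -/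
lemma gdir_orthonormal_iff {d : ℕ} (b : Fin 1 → Vec d) : Orthonormal ℝ b ↔ ‖b 0‖ = 1 := by
  constructor
  · intro h
    exact h.1 0
  · intro h
    refine ⟨fun i => ?_, fun i j hij => ?_⟩
    · rw [Subsingleton.elim i 0]
      exact h
    · exact absurd (Subsingleton.elim i j) hij

lemma gdir_measurableSet_orthonormal {d : ℕ} :
    MeasurableSet {b : Fin 1 → Vec d | Orthonormal ℝ b} := by
  have h : {b : Fin 1 → Vec d | Orthonormal ℝ b}
      = (fun b : Fin 1 → Vec d => ‖b 0‖) ⁻¹' {1} := by
    ext b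
    simp
  rw [h]
  exact ((measurable_pi_apply 0).norm) (measurableSet_singleton 1)

/-- The direction of a standard Gaussian vector is uniform on the sphere. -/
theorem lintegral_gaussian_dir {d : ℕ} (s₀ : Sph d) (F : Sph d → ℝ≥0∞) (hF : Measurable F) :
    ∫⁻ g, F (dirS s₀ g) ∂(stdGaussian (Vec d)) = ∫⁻ u, F u ∂(uniformSphere d) := by
  have hd : 1 ≤ d := g1_one_le_dim_of_sph s₀
  have hD : Measurable (fun g : Vec d => fun _ : Fin 1 => ((dirS s₀ g : Sph d) : Vec d)) :=
    measurable_pi_lambda _ (fun _ => measurable_subtype_coe.comp (measurable_dirS s₀))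
  have hι : Measurable (fun u : Sph d => fun _ : Fin 1 => (u : Vec d)) :=
    measurable_pi_lambda _ (fun _ => measurable_subtype_coe)
  have hprob : IsProbabilityMeasure (uniformSphere d) := ⟨uniformSphere_univ hd⟩
  obtain ⟨ν, hνdef⟩ : ∃ ν : Measure (Fin 1 → Vec d), ν = (stdGaussian (Vec d)).map
      (fun g : Vec d => fun _ : Fin 1 => ((dirS s₀ g : Sph d) : Vec d)) := ⟨_, rfl⟩
  obtain ⟨ν', hν'def⟩ : ∃ ν' : Measure (Fin 1 → Vec d), ν' = (uniformSphere d).map
      (fun u : Sph d => fun _ : Fin 1 => (u : Vec d)) := ⟨_, rfl⟩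
  have hνp : IsProbabilityMeasure ν := by
    rw [hνdef]
    exact Measure.isProbabilityMeasure_map hD.aemeasurable
  have hν'p : IsProbabilityMeasure ν' := by
    rw [hν'def]
    exact Measure.isProbabilityMeasure_map hι.aemeasurable
  have hmass : ν univ = ν' univ := by rw [measure_univ, measure_univ]
  have hν : ∀ᵐ b ∂ν, Orthonormal ℝ b := by
    rw [hνdef, ae_map_iff hD.aemeasurable gdir_measurableSet_orthonormal]
    refine Filter.Eventually.of_forall (fun g => ?_)
    rw [gdir_orthonormal_iff]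
    simp
  have hν' : ∀ᵐ b ∂ν', Orthonormal ℝ b := by
    rw [hν'def, ae_map_iff hι.aemeasurable gdir_measurableSet_orthonormal]
    refine Filter.Eventually.of_forall (fun u => ?_)
    rw [gdir_orthonormal_iff]
    simp
  have hΦ : ∀ O : Vec d ≃ₗᵢ[ℝ] Vec d,
      Measurable (fun (b : Fin 1 → Vec d) (i : Fin 1) => O (b i)) := fun O =>
    measurable_pi_lambda _ (fun i => O.continuous.measurable.comp (measurable_pi_apply i))
  have hinv : ∀ O : Vec d ≃ₗᵢ[ℝ] Vec d, ν.map (fun b i => O (b i)) = ν := by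
    intro O
    rw [hνdef, Measure.map_map (hΦ O) hD]
    have hae : ((fun (b : Fin 1 → Vec d) (i : Fin 1) => O (b i))
          ∘ (fun g : Vec d => fun _ : Fin 1 => ((dirS s₀ g : Sph d) : Vec d)))
        =ᵐ[stdGaussian (Vec d)]
        ((fun g : Vec d => fun _ : Fin 1 => ((dirS s₀ g : Sph d) : Vec d)) ∘ O) := by
      have hnull : ∀ᵐ g ∂(stdGaussian (Vec d)), g ≠ 0 := by
        rw [ae_iff]
        simpa using gdir_gaussian_zero_null s₀
      filter_upwards [hnull] with g hg
      funext _
      simp only [Function.comp_apply]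
      exact (gdir_dirS_map s₀ O hg).symm
    rw [Measure.map_congr hae, ← Measure.map_map hD O.continuous.measurable, stdGaussian_map O]
  have hinv' : ∀ O : Vec d ≃ₗᵢ[ℝ] Vec d, ν'.map (fun b i => O (b i)) = ν' := by
    intro O
    rw [hν'def, Measure.map_map (hΦ O) hι]
    have he : ((fun (b : Fin 1 → Vec d) (i : Fin 1) => O (b i))
          ∘ (fun u : Sph d => fun _ : Fin 1 => (u : Vec d)))
        = (fun u : Sph d => fun _ : Fin 1 => (u : Vec d)) ∘ isoS O := by
      funext u i
      simp
    rw [he, ← Measure.map_map hι (measurable_isoS O), (g1_measurePreserving_isoS O).map_eq]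
  have heq : ν = ν' := frame_measure_unique hd ν ν' hmass hν hν' hinv hinv'
  have hG : Measurable (fun b : Fin 1 → Vec d => F (dirS s₀ (b 0))) :=
    hF.comp ((measurable_dirS s₀).comp (measurable_pi_apply 0))
  have h1 : ∫⁻ g, F (dirS s₀ g) ∂(stdGaussian (Vec d)) = ∫⁻ b, F (dirS s₀ (b 0)) ∂ν := by
    rw [hνdef, lintegral_map hG hD]
    refine lintegral_congr (fun g => ?_)
    rw [gdir_dirS_coe]
  have h2 : ∫⁻ u, F u ∂(uniformSphere d) = ∫⁻ b, F (dirS s₀ (b 0)) ∂ν' := by
    rw [hν'def, lintegral_map hG hι]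
    refine lintegral_congr (fun u => ?_)
    rw [gdir_dirS_coe]
  rw [h1, h2, heq]

end Vale.Agent.Lib.P309
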