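import Vale.Agent.Lib.P309.TwoStageA

namespace Vale.Agent.Lib.P309

open MeasureTheory ProbabilityTheory Metric Set
open scoped ENNReal

variable {d M : ℕ}

/-- Probability that the learner, restarted in the pair `p` after `n` samples, decodes the
signal `s` from `k` further independent Gaussian samples. -/
noncomputable def phiBar (L : Learner d M) (n k : ℕ) (ε : ℝ) (p : St M) (s : Sph d) : ℝ≥0∞ :=
  ∫⁻ X'', phiW L n k ε p X'' s ∂(Measure.infinitePi (fun _ : ℕ => stdGaussian (Vec d)))

lemma measurable_phiBar (L : Learner d M) (n k : ℕ) (ε : ℝ) (p : St M) :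
    Measurable (phiBar L n k ε p) := by
  have h := (measurable_phiW L n k ε p).lintegral_prod_left'
    (μ := Measure.infinitePi (fun _ : ℕ => stdGaussian (Vec d)))
  exact h

lemma phiBar_le_one (L : Learner d M) (n k : ℕ) (ε : ℝ) (p : St M) (s : Sph d) :
    phiBar L n k ε p s ≤ 1 := by
  unfold phiBar
  calc ∫⁻ X'', phiW L n k ε p X'' s ∂(Measure.infinitePi (fun _ : ℕ => stdGaussian (Vec d)))
      ≤ ∫⁻ _X'' : ℕ → Vec d, (1 : ℝ≥0∞)
          ∂(Measure.infinitePi (fun _ : ℕ => stdGaussian (Vec d))) :=
        lintegral_mono (fun X'' => phiW_le_one L n k ε p X'' s)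
    _ = 1 := by simp

/-- The success probability written with any law `Q` whose first marginal is the law of the
first `n` rows. -/
lemma successProb_eq_coupling (L : Learner d M) (n k : ℕ) (ε : ℝ) {m : ℕ}
    (Q : Measure ((Fin n → Vec d) × (Fin m → Vec d)))
    (hQ1 : Q.map Prod.fst = Measure.pi (fun _ : Fin n => stdGaussian (Vec d))) :
    L.successProb (n + k) ε
      = ∫⁻ s, ∫⁻ ω, ∑ p : St M, muW L n p ω.1 s * phiBar L n k ε p s ∂Q ∂(uniformSphere d) := by
  rw [successProb_split]
  refine lintegral_congr (fun s => ?_)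
  have hmu : ∀ p : St M, Measurable (fun X' : Fin n → Vec d => muW L n p X' s) := by
    intro p
    have h := (measurable_muW L n p).comp
      (measurable_id.prodMk (measurable_const (a := s)))
    exact h
  have hphi : ∀ p : St M, Measurable (fun X'' : ℕ → Vec d => phiW L n k ε p X'' s) := by
    intro p
    have h := (measurable_phiW L n k ε p).comp
      (measurable_id.prodMk (measurable_const (a := s)))
    exact h
  have hinner : ∀ X' : Fin n → Vec d,
      ∫⁻ X'', ∑ p : St M, muW L n p X' s * phiW L n k ε p X'' s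
        ∂(Measure.infinitePi (fun _ : ℕ => stdGaussian (Vec d)))
      = ∑ p : St M, muW L n p X' s * phiBar L n k ε p s := by
    intro X'
    rw [lintegral_finsetSum _ (fun p _ => (hphi p).const_mul _)]
    refine Finset.sum_congr rfl (fun p _ => ?_)
    rw [lintegral_const_mul _ (hphi p)]
    rfl
  simp_rw [hinner]
  have hG : Measurable (fun X' : Fin n → Vec d =>
      ∑ p : St M, muW L n p X' s * phiBar L n k ε p s) :=
    Finset.measurable_sum _ (fun p _ => (hmu p).mul_const _)
  rw [← hQ1, lintegral_map hG measurable_fst]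

end Vale.Agent.Lib.P309
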