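import Vale.Agent.Lib.P309.Model

namespace Vale.Agent.Lib.P309

open MeasureTheory ProbabilityTheory Metric Set
open scoped ENNReal

/-- The normalised Gram-Schmidt family of a family of `N` vectors of `ℝ^d`. -/
noncomputable def gsN {d N : ℕ} (w : Fin N → Vec d) : Fin N → Vec d :=
  InnerProductSpace.gramSchmidtNormed ℝ w

/-- The recursion of the Gram-Schmidt process with explicit projections. -/
lemma gsaux_formula {d N : ℕ} (w : Fin N → Vec d) (n : Fin N) :
    InnerProductSpace.gramSchmidt ℝ w n = w n - ∑ i ∈ Finset.Iio n,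
      (inner ℝ (InnerProductSpace.gramSchmidt ℝ w i) (w n)
        / ‖InnerProductSpace.gramSchmidt ℝ w i‖ ^ 2) • InnerProductSpace.gramSchmidt ℝ w i := by
  have h := InnerProductSpace.gramSchmidt_def ℝ w n
  rw [h]
  congr 1
  refine Finset.sum_congr rfl (fun i _ => ?_)
  rw [Submodule.starProjection_singleton]
  simp

/-- Each vector of the Gram-Schmidt family depends measurably on the family. -/
lemma gsaux_measurable {d N : ℕ} (n : Fin N) :
    Measurable (fun w : Fin N → Vec d => InnerProductSpace.gramSchmidt ℝ w n) := by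
  refine wellFounded_lt.induction
    (C := fun n => Measurable (fun w : Fin N → Vec d => InnerProductSpace.gramSchmidt ℝ w n))
    n (fun n ih => ?_)
  have hform : (fun w : Fin N → Vec d => InnerProductSpace.gramSchmidt ℝ w n)
      = fun w : Fin N → Vec d => w n - ∑ i ∈ Finset.Iio n,
        (inner ℝ (InnerProductSpace.gramSchmidt ℝ w i) (w n)
          / ‖InnerProductSpace.gramSchmidt ℝ w i‖ ^ 2) • InnerProductSpace.gramSchmidt ℝ w i :=
    funext (fun w => gsaux_formula w n)
  rw [hform]
  refine (measurable_pi_apply n).sub (Finset.measurable_sum _ (fun i hi => ?_))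
  have hi' : i < n := Finset.mem_Iio.1 hi
  have hm := ih i hi'
  exact ((hm.inner (measurable_pi_apply n)).div (hm.norm.pow_const 2)).smul hm

theorem measurable_gsN {d N : ℕ} : Measurable (gsN (d := d) (N := N)) := by
  rw [measurable_pi_iff]
  intro n
  have h : (fun w : Fin N → Vec d => gsN w n)
      = fun w : Fin N → Vec d => (‖InnerProductSpace.gramSchmidt ℝ w n‖)⁻¹
          • InnerProductSpace.gramSchmidt ℝ w n := by
    funext w
    simp [gsN, InnerProductSpace.gramSchmidtNormed]
  rw [h]
  exact (gsaux_measurable n).norm.inv.smul (gsaux_measurable n)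

/-- The Gram-Schmidt process commutes with linear isometries. -/
lemma gsaux_map {d N : ℕ} (O : Vec d ≃ₗᵢ[ℝ] Vec d) (w : Fin N → Vec d) (n : Fin N) :
    InnerProductSpace.gramSchmidt ℝ (fun i => O (w i)) n
      = O (InnerProductSpace.gramSchmidt ℝ w n) := by
  refine wellFounded_lt.induction
    (C := fun n => InnerProductSpace.gramSchmidt ℝ (fun i => O (w i)) n
      = O (InnerProductSpace.gramSchmidt ℝ w n))
    n (fun n ih => ?_)
  rw [gsaux_formula (fun i => O (w i)) n, gsaux_formula w n, map_sub, map_sum]
  congr 1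
  refine Finset.sum_congr rfl (fun i hi => ?_)
  have hi' : i < n := Finset.mem_Iio.1 hi
  rw [ih i hi', map_smul, LinearIsometryEquiv.inner_map_map, LinearIsometryEquiv.norm_map]

/-- Gram-Schmidt commutes with linear isometries. -/
theorem gsN_map {d N : ℕ} (O : Vec d ≃ₗᵢ[ℝ] Vec d) (w : Fin N → Vec d) :
    gsN (fun i => O (w i)) = fun i => O (gsN w i) := by
  funext n
  simp only [gsN, InnerProductSpace.gramSchmidtNormed]
  rw [gsaux_map O w n, LinearIsometryEquiv.norm_map, map_smul]

theorem gsN_orthonormal {d N : ℕ} {w : Fin N → Vec d} (h : LinearIndependent ℝ w) :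
    Orthonormal ℝ (gsN w) :=
  InnerProductSpace.gramSchmidtNormed_orthonormal h

/-- Each Gram-Schmidt vector is orthogonal to the earlier vectors of the family. -/
theorem gsN_inner_of_lt {d N : ℕ} (w : Fin N → Vec d) {i j : Fin N} (h : i < j) :
    inner ℝ (gsN w j) (w i) = 0 := by
  simp only [gsN, InnerProductSpace.gramSchmidtNormed]
  rw [real_inner_smul_left, InnerProductSpace.gramSchmidt_inv_triangular ℝ w h, mul_zero]

/-- Expansion of the family in its Gram-Schmidt family. -/
theorem gsN_expand {d N : ℕ} {w : Fin N → Vec d} (h : LinearIndependent ℝ w) (r : Fin N) :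
    w r = ∑ s : Fin N, inner ℝ (gsN w s) (w r) • gsN w s := by
  have hon : Orthonormal ℝ (gsN w) := gsN_orthonormal h
  have hmem : w r ∈ Submodule.span ℝ (Set.range (gsN w)) := by
    have e : Submodule.span ℝ (Set.range (gsN w)) = Submodule.span ℝ (Set.range w) := by
      unfold gsN
      rw [InnerProductSpace.span_gramSchmidtNormed_range, InnerProductSpace.span_gramSchmidt]
    rw [e]
    exact Submodule.subset_span (Set.mem_range_self r)
  obtain ⟨c, hc⟩ := (Submodule.mem_span_range_iff_exists_fun ℝ).1 hmem
  have hcoef : ∀ s : Fin N, inner ℝ (gsN w s) (w r) = c s := by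
    intro s
    rw [← hc]
    exact hon.inner_right_fintype c s
  simp only [hcoef]
  exact hc.symm

end Vale.Agent.Lib.P309
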