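import Vale.Agent.Lib.P309.Geo.GaussIndep

namespace Vale.Agent.Lib.P309

open MeasureTheory ProbabilityTheory Metric Set
open scoped ENNReal

lemma spokes_coe_ne_zero {d : ℕ} (s : Sph d) : (s : Vec d) ≠ 0 := by
  intro h
  have h2 : ‖(s : Vec d)‖ = 1 := by simp
  rw [h, norm_zero] at h2
  exact zero_ne_one h2

lemma spokes_ae_ne_zero {d : ℕ} (s : Sph d) : ∀ᵐ g ∂(stdGaussian (Vec d)), g ≠ 0 := by
  rw [ae_iff]
  refine measure_mono_null ?_ (stdGaussian_hyperplane_null (s : Vec d) (spokes_coe_ne_zero s))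
  intro x hx
  have hx0 : x = 0 := not_not.mp hx
  show inner ℝ (s : Vec d) x = 0
  rw [hx0, inner_zero_right]

end Vale.Agent.Lib.P309
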