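import Vale.Agent.Lib.P309.Geo.PiGaussMap
import Vale.Agent.Lib.P309.Multi.GramSchmidt

namespace Vale.Agent.Lib.P309

open MeasureTheory ProbabilityTheory Metric Set
open scoped ENNReal

/-- Coefficients of a family in its Gram-Schmidt family. -/
noncomputable def lqCoef {d n : ℕ} (X : Fin n → Vec d) : Fin n → Fin n → ℝ :=
  fun r s => inner ℝ (gsN X s) (X r)

theorem measurable_lqCoef {d n : ℕ} : Measurable (lqCoef (d := d) (n := n)) := by
  refine measurable_pi_lambda _ (fun r => measurable_pi_lambda _ (fun s => ?_))
  exact Measurable.inner ((measurable_pi_apply s).comp measurable_gsN) (measurable_pi_apply r)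

/-- The law of the Gram-Schmidt family of `n` independent standard Gaussian vectors. -/
noncomputable def frameLaw (d n : ℕ) : Measure (Fin n → Vec d) :=
  (Measure.pi (fun _ : Fin n => stdGaussian (Vec d))).map gsN

/-- Applying a linear isometry to every vector of a family is measurable. -/
lemma lqh_measurable_isoFam {d N : ℕ} (O : Vec d ≃ₗᵢ[ℝ] Vec d) :
    Measurable (fun b : Fin N → Vec d => fun i => O (b i)) :=
  measurable_pi_lambda _ (fun i => O.continuous.measurable.comp (measurable_pi_apply i))

/-- The set of orthonormal families is measurable. -/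
lemma lqh_measurableSet_orthonormal {d N : ℕ} :
    MeasurableSet {b : Fin N → Vec d | Orthonormal ℝ b} := by
  have hset : {b : Fin N → Vec d | Orthonormal ℝ b}
      = ⋂ i, ⋂ j, {b : Fin N → Vec d | inner ℝ (b i) (b j) = if i = j then (1 : ℝ) else 0} := by
    ext b
    simp [orthonormal_iff_ite]
  rw [hset]
  refine MeasurableSet.iInter (fun i => MeasurableSet.iInter (fun j => ?_))
  exact measurableSet_eq_fun
    (Measurable.inner (measurable_pi_apply i) (measurable_pi_apply j)) measurable_const

/-- Gram-Schmidt intertwines the action of a linear isometry on families. -/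
lemma lqh_comp_gsN {d n : ℕ} (O : Vec d ≃ₗᵢ[ℝ] Vec d) :
    (fun b : Fin n → Vec d => fun i => O (b i)) ∘ gsN
      = gsN ∘ (fun X : Fin n → Vec d => fun i => O (X i)) := by
  funext X
  simp only [Function.comp_apply]
  rw [gsN_map]

/-- The frame law is a probability measure. -/
lemma lqh_frameLaw_prob {d n : ℕ} : IsProbabilityMeasure (frameLaw d n) :=
  Measure.isProbabilityMeasure_map measurable_gsN.aemeasurable

/-- The frame law is invariant under linear isometries. -/
lemma lqh_frameLaw_map {d n : ℕ} (O : Vec d ≃ₗᵢ[ℝ] Vec d) :
    (frameLaw d n).map (fun b : Fin n → Vec d => fun i => O (b i)) = frameLaw d n := by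
  unfold frameLaw
  rw [Measure.map_map (lqh_measurable_isoFam O) measurable_gsN, lqh_comp_gsN,
    ← Measure.map_map measurable_gsN (lqh_measurable_isoFam O), nrm_pi_gaussian_map]

end Vale.Agent.Lib.P309
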